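import Vale.Agent.P105.Pisot

open Vale.Agent.P105

/-- The Bernoulli convolution is singular for the reciprocals of the two quartic Salem numbers
in `(1, 2)`, which are not Pisot numbers; so singularity does not force the Pisot property. -/
theorem Vale.Agent.Results.P105.NonPisotSingular.result :
    (∃ l : ℝ, l ∈ Set.Ioo (1 / 2 : ℝ) 1 ∧ ¬IsPisot l⁻¹ ∧ IsSingular (bernoulliConv l)) ∧
    (∀ l : ℝ, l ∈ Set.Ioo (1 / 2 : ℝ) 1 →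
      (l ^ 4 - l ^ 3 - l ^ 2 - l + 1 = 0 ∨ l ^ 4 - 2 * l ^ 3 + l ^ 2 - 2 * l + 1 = 0) →
        ¬IsPisot l⁻¹ ∧ IsSingular (bernoulliConv l)) ∧
    (∃ l : ℝ, l ∈ Set.Ioo (1 / 2 : ℝ) 1 ∧ l ^ 4 - l ^ 3 - l ^ 2 - l + 1 = 0) ∧
    (∃ l : ℝ, l ∈ Set.Ioo (1 / 2 : ℝ) 1 ∧ l ^ 4 - 2 * l ^ 3 + l ^ 2 - 2 * l + 1 = 0) := by
  have e1 := exists_root (fun l => l ^ 4 - l ^ 3 - l ^ 2 - l + 1) (by fun_prop) (by norm_num)
    (by norm_num)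
  have e2 := exists_root (fun l => l ^ 4 - 2 * l ^ 3 + l ^ 2 - 2 * l + 1) (by fun_prop)
    (by norm_num) (by norm_num)
  refine ⟨?_, fun l hl h => h.elim (main_one hl) (main_two hl), e1, e2⟩
  obtain ⟨l, hl, h⟩ := e1
  exact ⟨l, hl, main_one hl h⟩
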