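import Vale.Agent.P105.Salem

open Vale.Agent.P105

/-- The Bernoulli convolution is singular whenever the inverse parameter is a quartic Salem
number; these parameters are exactly the roots of two explicit quartics, both of which occur,
and the inverse parameters are not Pisot numbers. -/
theorem Vale.Agent.Results.P105.QuarticSalem.result :
    ¬(∀ l : ℝ, l ∈ Set.Ioo (1 / 2 : ℝ) 1 → IsSingular (bernoulliConv l) → IsPisot l⁻¹) ∧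
    (∀ l : ℝ, l ∈ Set.Ioo (1 / 2 : ℝ) 1 → IsSalem l⁻¹ → (minpoly ℚ l⁻¹).natDegree = 4 →
      ¬IsPisot l⁻¹ ∧ IsSingular (bernoulliConv l)) ∧
    (∀ l : ℝ, l ∈ Set.Ioo (1 / 2 : ℝ) 1 →
      ((IsSalem l⁻¹ ∧ (minpoly ℚ l⁻¹).natDegree = 4) ↔
        (l ^ 4 - l ^ 3 - l ^ 2 - l + 1 = 0 ∨ l ^ 4 - 2 * l ^ 3 + l ^ 2 - 2 * l + 1 = 0))) ∧
    (∃ l : ℝ, l ∈ Set.Ioo (1 / 2 : ℝ) 1 ∧ l ^ 4 - l ^ 3 - l ^ 2 - l + 1 = 0) ∧
    (∃ l : ℝ, l ∈ Set.Ioo (1 / 2 : ℝ) 1 ∧ l ^ 4 - 2 * l ^ 3 + l ^ 2 - 2 * l + 1 = 0) := by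
  have e1 := exists_root (fun l => l ^ 4 - l ^ 3 - l ^ 2 - l + 1) (by fun_prop) (by norm_num)
    (by norm_num)
  have e2 := exists_root (fun l => l ^ 4 - 2 * l ^ 3 + l ^ 2 - 2 * l + 1) (by fun_prop)
    (by norm_num) (by norm_num)
  refine ⟨fun H => ?_, fun l hl hS hd => ((salem_iff hl).mp ⟨hS, hd⟩).elim (main_one hl)
    (main_two hl), fun l hl => salem_iff hl, e1, e2⟩
  obtain ⟨l, hl, h⟩ := e1
  exact (main_one hl h).1 (H l hl (main_one hl h).2)
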